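import Vale.Agent.P207.N4.Dim
import Vale.Agent.P207.N7.H281.FlipGeo
import Vale.Agent.P207.H281.JetCore
import Vale.Agent.P207.H281.Prod
import Vale.Agent.P207.H717.End7

/-!
# P207, line N7, END-GLUE: uniform 2-jets of the tensor in the affine charts
-/

set_option linter.unusedSectionVars false

open Set Filter Topology Metric
open scoped ContDiff

noncomputable section

namespace Vale.Agent.P207.H281

variable {E : Type*} [NormedAddCommGroup E] [InnerProductSpace ℝ E] [FiniteDimensional ℝ E]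

/-- the constant `K` can be enlarged -/
theorem PD.Ok.mono_Kp {D : PD E} {K K' θ r0 : ℝ} {Ck : ℕ → ℝ} {CQ : ℝ → ℝ → (ℕ → ℝ) → ℝ → ℝ}
    (h : D.Ok K θ r0 Ck CQ) (hK : K ≤ K') : D.Ok K' θ r0 Ck CQ where
  g_smooth := h.g_smooth
  g_bd := h.g_bd
  g_zero := h.g_zero
  g_symm := h.g_symm
  N_bd x hx := (h.N_bd x hx).trans hK
  hol_mem := h.hol_mem
  hol_bd y x hy hx := (h.hol_bd y x hy hx).trans (by gcongr)
  Mp_bd y x hy hx := (h.Mp_bd y x hy hx).trans (by gcongr)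
  X_smB := h.X_smB
  A_bd x hx := (h.A_bd x hx).trans hK
  B_bd x hx := (h.B_bd x hx).trans hK
  prod y x hy hx := (h.prod y x hy hx).trans (by gcongr)
  lq := h.lq

/-- the quadratic part of the jet -/
def jqp (A C : E →L[ℝ] E) (P1 : E →L[ℝ] E) (Q : E →L[ℝ] E →L[ℝ] (E →L[ℝ] E)) :
    E →L[ℝ] E →L[ℝ] (E →L[ℝ] E) :=
  (ContinuousLinearMap.compL ℝ E (E →L[ℝ] E) (E →L[ℝ] E)
    (ContinuousLinearMap.mulLeftRight ℝ (E →L[ℝ] E) A C)).comp (Q.bilinearComp P1 P1)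

theorem jqp_apply (A C : E →L[ℝ] E) (P1 : E →L[ℝ] E) (Q : E →L[ℝ] E →L[ℝ] (E →L[ℝ] E)) (z w : E) :
    jqp A C P1 Q z w = A * Q (P1 z) (P1 w) * C := rfl

set_option maxSynthPendingDepth 3 in
theorem jqp_norm {A C : E →L[ℝ] E} {P1 : E →L[ℝ] E} {Q : E →L[ℝ] E →L[ℝ] (E →L[ℝ] E)}
    {a c p k : ℝ} (hA : ‖A‖ ≤ a) (hC : ‖C‖ ≤ c) (hP : ‖P1‖ ≤ p) (hQ : ‖Q‖ ≤ k) :
    ‖jqp A C P1 Q‖ ≤ a * (k * p ^ 2) * c := by
  have ha : 0 ≤ a := (norm_nonneg _).trans hA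
  have hc : 0 ≤ c := (norm_nonneg _).trans hC
  have hp : 0 ≤ p := (norm_nonneg _).trans hP
  have hk : 0 ≤ k := (norm_nonneg Q).trans hQ
  refine ContinuousLinearMap.opNorm_le_bound₂ _ (by positivity) fun z w => ?_
  rw [jqp_apply]
  have h1 : ‖Q (P1 z) (P1 w)‖ ≤ k * (p * ‖z‖) * (p * ‖w‖) := by
    calc _ ≤ ‖Q‖ * ‖P1 z‖ * ‖P1 w‖ := Q.le_opNorm₂ _ _
      _ ≤ _ := by
        have h2 := P1.le_opNorm z
        have h3 := P1.le_opNorm w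
        have h4 : ‖P1 z‖ ≤ p * ‖z‖ := h2.trans (by gcongr)
        have h5 : ‖P1 w‖ ≤ p * ‖w‖ := h3.trans (by gcongr)
        gcongr
  calc _ ≤ a * (k * (p * ‖z‖) * (p * ‖w‖)) * c := norm_mul3 hA h1 hC
    _ = _ := by ring

end Vale.Agent.P207.H281

namespace Vale.Agent.P207.N4.Y

open Vale.Agent.P207.N3 Vale.Agent.P207.N4.Y.H547 Vale.Agent.P207.N4.H709

variable [Dim]

variable {Γ X B : Type} [Group Γ] [MetricSpace X] [ProperSpace X] [MulAction Γ X]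
  [IsIsometricSMul Γ X] [TopologicalSpace B] [CompactSpace B] [T2Space B] [MulAction Γ B]
  [ContinuousConstSMul Γ B]

namespace H281

/-- tube lemma at `z = 0` -/
theorem tube {K : Set X} (hK : IsCompact K) {U : Set (X × E2)} (hU : IsOpen U)
    (h : ∀ x ∈ K, (x, (0 : E2)) ∈ U) : ∃ ρ > 0, ∀ x ∈ K, ∀ z : E2, ‖z‖ < ρ → (x, z) ∈ U := by
  obtain ⟨δ, hδ, h1⟩ := (hK.prod (isCompact_singleton (x := (0 : E2)))).exists_thickening_subset_open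
    hU (by
      rintro ⟨x, z⟩ ⟨hx, hz⟩
      rw [mem_singleton_iff] at hz
      simp only at hz hx
      rw [hz]
      exact h x hx)
  refine ⟨δ, hδ, fun x hx z hz => h1 (mem_thickening_iff.2 ⟨(x, 0), ⟨hx, rfl⟩, ?_⟩)⟩
  rw [Prod.dist_eq, dist_self, dist_zero_right]
  exact max_lt hδ hz

/-- bounds near `z = 0` over a compact set of frames -/
theorem jbd {G : Type} [NormedAddCommGroup G] [NormedSpace ℝ G] {f : X → E2 → G}
    {S : Set (X × E2)} (hf : JC f S) {K : Set X} (hK : IsCompact K)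
    (h : ∀ x ∈ K, (x, (0 : E2)) ∈ S) : ∃ ρ > 0, ∃ M : ℕ → ℝ, ∀ x ∈ K,
      ContDiffOn ℝ ∞ (f x) (ball 0 ρ) ∧ ∀ k, ∀ z ∈ ball (0 : E2) ρ,
        ‖iteratedFDeriv ℝ k (f x) z‖ ≤ M k := by
  obtain ⟨ρ, hρ, h1⟩ := tube hK hf.isOpen h
  have hsub : K ×ˢ closedBall (0 : E2) (ρ / 2) ⊆ S := by
    rintro ⟨x, z⟩ ⟨hx, hz⟩
    refine h1 x hx z ?_
    have : ‖z‖ ≤ ρ / 2 := by simpa using hz
    linarith
  choose M hM using fun k => hf.bound (hK.prod (isCompact_closedBall (0 : E2) (ρ / 2))) hsub k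
  refine ⟨ρ / 2, by positivity, M, fun x hx => ⟨?_, fun k z hz => ?_⟩⟩
  · intro z hz
    exact (hf.contDiffAt (p := (x, z)) (hsub ⟨hx, ball_subset_closedBall hz⟩)).contDiffWithinAt
  · exact hM k (x, z) ⟨hx, ball_subset_closedBall hz⟩

/-- order 1: Lipschitz and bounded -/
theorem jbd1 {G : Type} [NormedAddCommGroup G] [NormedSpace ℝ G] {f : X → E2 → G}
    {S : Set (X × E2)} (hf : JC f S) {K : Set X} (hK : IsCompact K)
    (h : ∀ x ∈ K, (x, (0 : E2)) ∈ S) : ∃ ρ > 0, ∃ C : ℝ, ∀ x ∈ K, ∀ z ∈ ball (0 : E2) ρ,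
      ‖f x z‖ ≤ C ∧ ‖f x z - f x 0‖ ≤ C * ‖z‖ := by
  obtain ⟨ρ, hρ, M, hM⟩ := jbd hf hK h
  refine ⟨ρ, hρ, max (M 0) (M 1), fun x hx z hz => ?_⟩
  obtain ⟨h1, h2⟩ := hM x hx
  refine ⟨?_, ?_⟩
  · have := h2 0 z hz
    rw [norm_iteratedFDeriv_zero] at this
    exact this.trans (le_max_left _ _)
  · have := P207.H717.End7.norm_E1 hρ h1 h2 hz
    refine this.trans ?_
    gcongr
    exact le_max_right _ _

/-- order 2 -/
theorem jbd2 {G : Type} [NormedAddCommGroup G] [NormedSpace ℝ G] {f : X → E2 → G}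
    {S : Set (X × E2)} (hf : JC f S) {K : Set X} (hK : IsCompact K)
    (h : ∀ x ∈ K, (x, (0 : E2)) ∈ S) : ∃ ρ > 0, ∃ C : ℝ, ∀ x ∈ K, ∀ z ∈ ball (0 : E2) ρ,
      ‖fderiv ℝ (f x) 0‖ ≤ C ∧ ‖f x z - (f x 0 + fderiv ℝ (f x) 0 z)‖ ≤ C * ‖z‖ ^ 2 := by
  obtain ⟨ρ, hρ, M, hM⟩ := jbd hf hK h
  refine ⟨ρ, hρ, max (M 1) (M 2), fun x hx z hz => ?_⟩
  obtain ⟨h1, h2⟩ := hM x hx
  refine ⟨?_, ?_⟩
  · have := h2 1 0 (mem_ball_self hρ)
    rw [norm_iteratedFDeriv_one] at this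
    exact this.trans (le_max_left _ _)
  · have := P207.H717.End7.norm_E2 hρ h1 h2 hz
    refine this.trans ?_
    gcongr
    exact le_max_right _ _

set_option maxSynthPendingDepth 3 in
/-- order 3 -/
theorem jbd3 {G : Type} [NormedAddCommGroup G] [NormedSpace ℝ G] {f : X → E2 → G}
    {S : Set (X × E2)} (hf : JC f S) {K : Set X} (hK : IsCompact K)
    (h : ∀ x ∈ K, (x, (0 : E2)) ∈ S) : ∃ ρ > 0, ∃ C : ℝ, ∀ x ∈ K, ∃ (a : G) (L : E2 →L[ℝ] G)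
      (Q : E2 →L[ℝ] E2 →L[ℝ] G), ‖a‖ ≤ C ∧ ‖L‖ ≤ C ∧ ‖Q‖ ≤ C ∧
      ∀ z ∈ ball (0 : E2) ρ, ‖f x z - (a + L z + Q z z)‖ ≤ C * ‖z‖ ^ 3 := by
  obtain ⟨ρ, hρ, M, hM⟩ := jbd hf hK h
  refine ⟨ρ, hρ, max (max (M 0) (M 1)) (max (M 2) (M 3)), fun x hx => ?_⟩
  obtain ⟨h1, h2⟩ := hM x hx
  have h0 := mem_ball_self (x := (0 : E2)) hρ
  have e0 := h2 0 0 h0
  have e1 := h2 1 0 h0
  have e2 := h2 2 0 h0
  rw [norm_iteratedFDeriv_zero] at e0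
  rw [norm_iteratedFDeriv_one] at e1
  rw [← norm_iteratedFDeriv_fderiv, norm_iteratedFDeriv_one] at e2
  refine ⟨f x 0, fderiv ℝ (f x) 0, (1 / 2 : ℝ) • fderiv ℝ (fderiv ℝ (f x)) 0,
    e0.trans ((le_max_left _ _).trans (le_max_left _ _)),
    e1.trans ((le_max_right _ _).trans (le_max_left _ _)), ?_, fun z hz => ?_⟩
  · rw [norm_smul]
    have h3 : ‖(1 / 2 : ℝ)‖ ≤ 1 := by norm_num
    calc _ ≤ 1 * ‖fderiv ℝ (fderiv ℝ (f x)) 0‖ := by gcongr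
      _ ≤ M 2 := by rw [one_mul]; exact e2
      _ ≤ _ := (le_max_left _ _).trans (le_max_right _ _)
  · have := P207.H717.End7.norm_E3 hρ h1 h2 hz
    refine this.trans ?_
    gcongr
    exact (le_max_right _ _).trans (le_max_right _ _)

end H281

namespace Pic

variable {L : Leaf Γ X B} [MeasurableSpace B] [BorelSpace B] {V : Type}
  [NormedAddCommGroup V] [NormedSpace ℝ V] [FiniteDimensional ℝ V] (P : Pic L V)

/-- where `Rr` is invertible -/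
def dR : Set (X × E2) := {p | p ∈ P.Af.dT ∧ (P.Rr p.1 p.2).IsInvertible}

theorem isOpen_dR : IsOpen P.dR := by
  have hU : IsOpen {A : E2 →L[ℝ] E2 | A.IsInvertible} := by
    have := ContinuousLinearEquiv.isOpen (𝕜 := ℝ) (E := E2) (F := E2)
    exact this
  exact P.Rr_jc.continuousOn.isOpen_inter_preimage P.Af.isOpen_dT hU

theorem zero_dR (x : X) : (x, (0 : E2)) ∈ P.dR := ⟨P.Af.zero_dT x, P.Rr_zero_inv x⟩

theorem Ri_jc : JC (fun x z => Ring.inverse (P.Rr x z)) P.dR := by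
  have h1 := (P.Rr_jc.mono P.isOpen_dR fun _ hp => hp.1).inverse fun p hp => hp.2
  refine h1.congr fun p _ => ?_
  rw [ContinuousLinearMap.ringInverse_eq_inverse]

theorem Ai_jc' : JC P.Ai P.dR := P.Ai_jc.mono P.isOpen_dR fun _ hp => hp.1

theorem Lf_jc : JC (fun x z => P.Ai x z * Ring.inverse (P.Rr x z)) P.dR :=
  P.Ai_jc'.clm_comp P.Ri_jc

theorem Ais_jc : JC (fun x z => star (P.Ai x z)) P.dR := P.Ai_jc'.clm adjL

theorem Rg_jc : JC (fun x z => Ring.inverse (P.Rr x z) * star (P.Ai x z)) P.dR :=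
  P.Ri_jc.clm_comp P.Ais_jc

theorem Gj_jc : JC (fun x z => P.Bu.c₀ • (P.Ai x z * Ring.inverse (P.Rr x z) * star (P.Ai x z))
    + P.Rl x z) P.dR :=
  ((P.Lf_jc.clm_comp P.Ais_jc).const_smul P.Bu.c₀).add (P.Rl_jc.mono P.isOpen_dR fun _ hp => hp.1)

/-- smallness of the label -/
theorem exists_label {K : Set X} (hK : IsCompact K) {δ : ℝ} (hδ : 0 < δ) : ∃ ρ > 0, ∀ x ∈ K,
    ∀ z : E2, ‖z‖ < ρ → 0 < P.Bu.nu (L.flip x) (P.Af.pt x z) 0 ∧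
      ‖P.gr (L.flip x) (P.Af.pt x z) 0‖ < δ := by
  have hc : Continuous fun p : X × E2 => ((L.flip p.1, P.Af.pt p.1 p.2) : X × B) :=
    (L.flip_cont.comp continuous_fst).prodMk P.Af.pt_cont
  have c1 : Continuous fun p : X × E2 => P.Bu.nu (L.flip p.1) (P.Af.pt p.1 p.2) 0 :=
    (nu0_cont P.Bu).comp hc
  have c2 : Continuous fun p : X × E2 =>
      ‖P.Af.c⁻¹ • gradient (P.Bu.be (L.flip p.1) (P.Af.pt p.1 p.2)) 0‖ :=
    (((grad0_cont P.Bu).comp hc).const_smul P.Af.c⁻¹).norm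
  have hU : IsOpen {p : X × E2 | 0 < P.Bu.nu (L.flip p.1) (P.Af.pt p.1 p.2) 0 ∧
      ‖P.Af.c⁻¹ • gradient (P.Bu.be (L.flip p.1) (P.Af.pt p.1 p.2)) 0‖ < δ} :=
    (isOpen_lt continuous_const c1).inter (isOpen_lt c2 continuous_const)
  obtain ⟨ρ, hρ, h⟩ := H281.tube hK hU fun x _ => by
    have h2 : P.Af.pt x 0 = L.em (L.flip x) := by rw [P.Af.pt_zero, L.ep_flip]
    refine ⟨?_, ?_⟩
    · change 0 < P.Bu.nu (L.flip x) (P.Af.pt x 0) 0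
      rw [h2]
      exact P.Bu.nu_em _
    · change ‖P.Af.c⁻¹ • gradient (P.Bu.be (L.flip x) (P.Af.pt x 0)) 0‖ < δ
      rw [h2, P.Bu.be_crit, smul_zero, norm_zero]
      exact hδ
  refine ⟨ρ, hρ, fun x hx z hz => ⟨(h x hx z hz).1, ?_⟩⟩
  rw [P.gr_zero]
  exact (h x hx z hz).2

/-- the crossing point is controlled by the momentum -/
theorem exists_kap_le {K : Set X} (hK : IsCompact K) : ∃ ρ > 0, ∃ C : ℝ, ∀ x ∈ K,
    ∀ z ∈ ball (0 : E2) ρ, ‖P.kap x z‖ ≤ C * ‖z‖ ∧ ‖P.kap x z‖ ≤ C * ‖P.pm x z‖ := by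
  obtain ⟨ρ1, hρ1, C1, h1⟩ := H281.jbd1 P.kap_jc hK fun x _ => P.Af.zero_dT x
  obtain ⟨ρ2, hρ2, C2, h2⟩ := H281.jbd2 (gradient_jc P.SqF_jc) hK
    fun x _ => show (L.flip x, (0 : E2)) ∈ P.Af.dT from P.Af.zero_dT _
  obtain ⟨ρ3, hρ3, C3, h3⟩ := H281.jbd1 P.Ri_jc hK fun x _ => P.zero_dR x
  set C1' : ℝ := max C1 1 with hC1'
  set C2' : ℝ := max C2 1 with hC2'
  set C3' : ℝ := max C3 1 with hC3'
  have k1 : 0 < C1' := lt_max_of_lt_right one_pos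
  have k2 : 0 < C2' := lt_max_of_lt_right one_pos
  have k3 : 0 < C3' := lt_max_of_lt_right one_pos
  refine ⟨min (min ρ1 ρ3) (min (ρ2 / C1') (1 / (2 * C3' * C2' * C1'))), by positivity,
    max C1' (2 * C3'), fun x hx z hz => ?_⟩
  rw [mem_ball_zero_iff] at hz
  have z1 : ‖z‖ < ρ1 := hz.trans_le ((min_le_left _ _).trans (min_le_left _ _))
  have z3 : ‖z‖ < ρ3 := hz.trans_le ((min_le_left _ _).trans (min_le_right _ _))
  have z2 : ‖z‖ < ρ2 / C1' := hz.trans_le ((min_le_right _ _).trans (min_le_left _ _))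
  have z4 : ‖z‖ < 1 / (2 * C3' * C2' * C1') :=
    hz.trans_le ((min_le_right _ _).trans (min_le_right _ _))
  have e1 : ‖P.kap x z‖ ≤ C1' * ‖z‖ := by
    have := (h1 x hx z (by simpa using z1)).2
    rw [P.kap_zero, sub_zero] at this
    exact this.trans (by gcongr; exact le_max_left _ _)
  set κ : E2 := P.kap x z with hκ
  have hκ2 : κ ∈ ball (0 : E2) ρ2 := by
    rw [mem_ball_zero_iff]
    rw [lt_div_iff₀ k1] at z2
    linarith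
  have e2 := (h2 x hx κ hκ2).2
  have e3 : gradient (fun q => P.Sq (L.flip x) (L.em (L.flip x)) (L.em x) q) 0 = 0 :=
    P.grad_SqF_zero x
  have e4 : fderiv ℝ (gradient fun q => P.Sq (L.flip x) (L.em (L.flip x)) (L.em x) q) 0
      = P.Rr x 0 := by
    rw [Rr, P.kap_zero]
    rfl
  rw [e3, zero_add, e4] at e2
  have e5 : ‖P.Rr x 0 κ‖ ≤ ‖P.pm x z‖ + C2' * ‖κ‖ ^ 2 := by
    have e6 : P.pm x z = -gradient (fun q => P.Sq (L.flip x) (L.em (L.flip x)) (L.em x) q) κ := rfl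
    have e7 : P.Rr x 0 κ = -(P.pm x z) -
        (gradient (fun q => P.Sq (L.flip x) (L.em (L.flip x)) (L.em x) q) κ - P.Rr x 0 κ) := by
      rw [e6]
      abel
    rw [e7]
    refine (norm_sub_le _ _).trans ?_
    rw [norm_neg]
    have e8 : C2 * ‖κ‖ ^ 2 ≤ C2' * ‖κ‖ ^ 2 := by gcongr; exact le_max_left _ _
    linarith
  have e9 : ‖κ‖ ≤ C3' * ‖P.Rr x 0 κ‖ := by
    have e10 := inverse_apply (P.Rr_zero_inv x) κ
    have e11 := (h3 x hx 0 (mem_ball_self hρ3)).1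
    calc ‖κ‖ = ‖Ring.inverse (P.Rr x 0) (P.Rr x 0 κ)‖ := by rw [e10]
      _ ≤ ‖Ring.inverse (P.Rr x 0)‖ * ‖P.Rr x 0 κ‖ := ContinuousLinearMap.le_opNorm _ _
      _ ≤ _ := by
        gcongr
        exact e11.trans (le_max_left _ _)
  have e12 : C3' * C2' * ‖κ‖ ≤ 1 / 2 := by
    rw [lt_div_iff₀ (by positivity)] at z4
    calc C3' * C2' * ‖κ‖ ≤ C3' * C2' * (C1' * ‖z‖) := by gcongr
      _ ≤ 1 / 2 := by linarith
  have e13 : ‖κ‖ ≤ 2 * C3' * ‖P.pm x z‖ := by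
    have e14 : C3' * (‖P.pm x z‖ + C2' * ‖κ‖ ^ 2)
        = C3' * ‖P.pm x z‖ + (C3' * C2' * ‖κ‖) * ‖κ‖ := by ring
    have e15 : ‖κ‖ ≤ C3' * (‖P.pm x z‖ + C2' * ‖κ‖ ^ 2) := e9.trans (by gcongr)
    rw [e14] at e15
    have e16 : (C3' * C2' * ‖κ‖) * ‖κ‖ ≤ 1 / 2 * ‖κ‖ := by gcongr
    linarith
  exact ⟨e1.trans (by gcongr; exact le_max_left _ _), e13.trans (by gcongr; exact le_max_right _ _)⟩

end Pic

end Vale.Agent.P207.N4.Y
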