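import Vale.Agent.P207.N4.Dim
import Vale.Agent.P207.N7.H281.Jets

/-!
# P207, line N7, END-GLUE: uniform 2-jets of the tensor in the affine charts, part 2
-/

set_option linter.unusedSectionVars false

open Set Filter Topology Metric
open scoped ContDiff

noncomputable section

namespace Vale.Agent.P207.N4.Y

open Vale.Agent.P207.N3 Vale.Agent.P207.N4.Y.H547 Vale.Agent.P207.N4.H709

variable [Dim]

variable {Γ X B : Type} [Group Γ] [MetricSpace X] [ProperSpace X] [MulAction Γ X]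
  [IsIsometricSMul Γ X] [TopologicalSpace B] [CompactSpace B] [T2Space B] [MulAction Γ B]
  [ContinuousConstSMul Γ B]

namespace Pic

variable {L : Leaf Γ X B} [MeasurableSpace B] [BorelSpace B] {V : Type}
  [NormedAddCommGroup V] [NormedSpace ℝ V] [FiniteDimensional ℝ V] (P : Pic L V)

/-- the constants of the smooth families, over a compact set of frames -/
structure Cst (Kc : Set X) (C0 ρ : ℝ) : Prop where
  one : 1 ≤ C0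
  pos : 0 < ρ
  dR : ∀ x ∈ Kc, ∀ z ∈ ball (0 : E2) ρ, (x, z) ∈ P.dR
  Ai : ∀ x ∈ Kc, ∀ z ∈ ball (0 : E2) ρ, ‖P.Ai x z‖ ≤ C0
  Ri : ∀ x ∈ Kc, ∀ z ∈ ball (0 : E2) ρ, ‖Ring.inverse (P.Rr x z)‖ ≤ C0
  Lf : ∀ x ∈ Kc, ∀ z ∈ ball (0 : E2) ρ, ‖P.Ai x z * Ring.inverse (P.Rr x z)
    - P.Ai x 0 * Ring.inverse (P.Rr x 0)‖ ≤ C0 * ‖z‖
  Lf0 : ∀ x ∈ Kc, ‖P.Ai x 0 * Ring.inverse (P.Rr x 0)‖ ≤ C0
  Rg : ∀ x ∈ Kc, ∀ z ∈ ball (0 : E2) ρ, ‖Ring.inverse (P.Rr x z) * star (P.Ai x z)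
    - Ring.inverse (P.Rr x 0) * star (P.Ai x 0)‖ ≤ C0 * ‖z‖
  Rg0 : ∀ x ∈ Kc, ‖Ring.inverse (P.Rr x 0) * star (P.Ai x 0)‖ ≤ C0
  pm0 : ∀ x ∈ Kc, ‖fderiv ℝ (P.pm x) 0‖ ≤ C0
  pm : ∀ x ∈ Kc, ∀ z ∈ ball (0 : E2) ρ, ‖P.pm x z - fderiv ℝ (P.pm x) 0 z‖ ≤ C0 * ‖z‖ ^ 2
  kap : ∀ x ∈ Kc, ∀ z ∈ ball (0 : E2) ρ, ‖P.kap x z‖ ≤ C0 * ‖z‖
  kap' : ∀ x ∈ Kc, ∀ z ∈ ball (0 : E2) ρ, ‖P.kap x z‖ ≤ C0 * ‖P.pm x z‖

theorem exists_cst {Kc : Set X} (hK : IsCompact Kc) : ∃ C0 ρ, P.Cst Kc C0 ρ := by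
  obtain ⟨ρ0, hρ0, h0⟩ := H281.tube hK P.isOpen_dR fun x _ => P.zero_dR x
  obtain ⟨ρ1, hρ1, C1, h1⟩ := H281.jbd1 P.Ai_jc' hK fun x _ => P.zero_dR x
  obtain ⟨ρ2, hρ2, C2, h2⟩ := H281.jbd1 P.Ri_jc hK fun x _ => P.zero_dR x
  obtain ⟨ρ3, hρ3, C3, h3⟩ := H281.jbd1 P.Lf_jc hK fun x _ => P.zero_dR x
  obtain ⟨ρ4, hρ4, C4, h4⟩ := H281.jbd1 P.Rg_jc hK fun x _ => P.zero_dR x
  obtain ⟨ρ5, hρ5, C5, h5⟩ := H281.jbd2 P.pm_jc hK fun x _ => P.Af.zero_dT x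
  obtain ⟨ρ6, hρ6, C6, h6⟩ := P.exists_kap_le hK
  set C0 : ℝ := 1 + |C1| + |C2| + |C3| + |C4| + |C5| + |C6| with hC0
  have a1 := abs_nonneg C1
  have a2 := abs_nonneg C2
  have a3 := abs_nonneg C3
  have a4 := abs_nonneg C4
  have a5 := abs_nonneg C5
  have a6 := abs_nonneg C6
  have b1 : C1 ≤ C0 := by linarith [le_abs_self C1]
  have b2 : C2 ≤ C0 := by linarith [le_abs_self C2]
  have b3 : C3 ≤ C0 := by linarith [le_abs_self C3]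
  have b4 : C4 ≤ C0 := by linarith [le_abs_self C4]
  have b5 : C5 ≤ C0 := by linarith [le_abs_self C5]
  have b6 : C6 ≤ C0 := by linarith [le_abs_self C6]
  set ρ : ℝ := min ρ0 (min (min ρ1 ρ2) (min (min ρ3 ρ4) (min ρ5 ρ6))) with hρ
  have s0 : ρ ≤ ρ0 := min_le_left _ _
  have s' : ρ ≤ min (min ρ1 ρ2) (min (min ρ3 ρ4) (min ρ5 ρ6)) := min_le_right _ _
  have s1 : ρ ≤ ρ1 := s'.trans ((min_le_left _ _).trans (min_le_left _ _))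
  have s2 : ρ ≤ ρ2 := s'.trans ((min_le_left _ _).trans (min_le_right _ _))
  have s'' : ρ ≤ min (min ρ3 ρ4) (min ρ5 ρ6) := s'.trans (min_le_right _ _)
  have s3 : ρ ≤ ρ3 := s''.trans ((min_le_left _ _).trans (min_le_left _ _))
  have s4 : ρ ≤ ρ4 := s''.trans ((min_le_left _ _).trans (min_le_right _ _))
  have s5 : ρ ≤ ρ5 := s''.trans ((min_le_right _ _).trans (min_le_left _ _))
  have s6 : ρ ≤ ρ6 := s''.trans ((min_le_right _ _).trans (min_le_right _ _))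
  have hρ0' : 0 < ρ := by
    rw [hρ]
    positivity
  have up : ∀ {a b c : ℝ}, a ≤ b → 0 ≤ c → a * c ≤ b * c := fun h hc =>
    mul_le_mul_of_nonneg_right h hc
  refine ⟨C0, ρ, by linarith, hρ0', fun x hx z hz => h0 x hx z ?_, fun x hx z hz => ?_,
    fun x hx z hz => ?_, fun x hx z hz => ?_, fun x hx => ?_, fun x hx z hz => ?_, fun x hx => ?_,
    fun x hx => ?_, fun x hx z hz => ?_, fun x hx z hz => ?_, fun x hx z hz => ?_⟩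
  · rw [mem_ball_zero_iff] at hz
    linarith
  · exact (h1 x hx z (ball_subset_ball s1 hz)).1.trans b1
  · exact (h2 x hx z (ball_subset_ball s2 hz)).1.trans b2
  · exact (h3 x hx z (ball_subset_ball s3 hz)).2.trans (up b3 (norm_nonneg _))
  · exact (h3 x hx 0 (mem_ball_self hρ3)).1.trans b3
  · exact (h4 x hx z (ball_subset_ball s4 hz)).2.trans (up b4 (norm_nonneg _))
  · exact (h4 x hx 0 (mem_ball_self hρ4)).1.trans b4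
  · exact (h5 x hx 0 (mem_ball_self hρ5)).1.trans b5
  · have := (h5 x hx z (ball_subset_ball s5 hz)).2
    rw [P.pm_zero, zero_add] at this
    exact this.trans (up b5 (by positivity))
  · exact (h6 x hx z (ball_subset_ball s6 hz)).1.trans (up b6 (norm_nonneg _))
  · exact (h6 x hx z (ball_subset_ball s6 hz)).2.trans (up b6 (norm_nonneg _))

/-- the smooth part of the tensor -/
def Gj (x : X) (z : E2) : E2 →L[ℝ] E2 :=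
  P.Bu.c₀ • (P.Ai x z * Ring.inverse (P.Rr x z) * star (P.Ai x z)) + P.Rl x z

set_option maxSynthPendingDepth 3 in
/-- **the tensor at one point** -/
theorem jet_at {Kc : Set X} {C0 ρ C K ε δ r1 : ℝ} (hc : P.Cst Kc C0 ρ) (hC : 0 ≤ C)
    (hε : 0 < ε) (hε1 : ε ≤ 3 / 4) (hcK : 2 * C0 ≤ 3 * K) (hδ1 : δ ≤ 1) (hδr : δ ≤ r1)
    (hδl : δ ≤ P.rl) (hδ2 : C * δ ^ (1 - ε) ≤ 1 / 2) {x : X} (hx : x ∈ Kc) {D : H281.PD E2}
    (hg : ∀ y, D.g y = P.gr (L.flip x) (P.lb (L.flip x) y))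
    {Q : E2 →L[ℝ] E2 →L[ℝ] (E2 →L[ℝ] E2)} (hQ : ‖Q‖ ≤ C)
    (hD2 : ∀ y q, ‖y‖ ≤ r1 → ‖q‖ ≤ 3 * K * ‖y‖ → ‖D.H y q - Q y y‖ ≤ C * ‖y‖ ^ (3 - ε))
    (hD1 : ∀ y q, ‖y‖ ≤ r1 → ‖q‖ < 20 / 32 → ‖D.H y q‖ ≤ C * ‖y‖ ^ (2 - ε) ∧
      ‖D.g y q - y‖ ≤ C * ‖y‖ ^ (2 - ε))
    {z : E2} (hz : z ∈ ball (0 : E2) ρ) (hz4 : 4 * C0 ^ 2 * ‖z‖ < 1)
    (hnu : 0 < P.Bu.nu (L.flip x) (P.Af.pt x z) 0)
    (hgr : ‖P.gr (L.flip x) (P.Af.pt x z) 0‖ < δ) :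
    ‖P.Na x z - (P.Gj x z - P.Bu.c₀ • H281.jqp (P.Ai x 0 * Ring.inverse (P.Rr x 0))
      (Ring.inverse (P.Rr x 0) * star (P.Ai x 0)) (fderiv ℝ (P.pm x) 0) Q z z)‖
      ≤ P.Bu.c₀ * H281.Cj C0 C * ‖z‖ ^ (3 - ε) := by
  have hdR := hc.dR x hx z hz
  have hdT : (x, z) ∈ P.Af.dT := hdR.1
  set y : E2 := P.gr (L.flip x) (P.Af.pt x z) 0 with hy
  have hlb : P.lb (L.flip x) y = P.Af.pt x z :=
    P.lb_unique (L.flip x) (P.Af.pt x z) hnu.le (hgr.trans_le hδl)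
  have hgy : D.g y = P.gr (L.flip x) (P.Af.pt x z) := by rw [hg, hlb]
  have hHy : D.H y (P.kap x z) = fderiv ℝ (P.gr (L.flip x) (P.Af.pt x z)) (P.kap x z) := by
    rw [H281.PD.H, hgy]
  have hyr : ‖y‖ ≤ r1 := hgr.le.trans hδr
  have h1 := H281.jet_pt (H := D.H y (P.kap x z)) (R := P.Rr x z) (A := P.Ai x z)
    (κ := P.kap x z) (p := P.pm x z) (P1 := fderiv ℝ (P.pm x) 0) (Q := Q)
    (Lf0 := P.Ai x 0 * Ring.inverse (P.Rr x 0))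
    (Rg0 := Ring.inverse (P.Rr x 0) * star (P.Ai x 0)) hc.one hC hε hε1 hcK hδ1 hδ2 hz4 hgr.le
    (hc.kap x hx z hz) (hc.kap' x hx z hz) (hc.pm x hx z hz) (hc.pm0 x hx) hQ
    (fun h => by
      have h3 := hD1 y (P.kap x z) hyr h
      rw [hgy, P.gr_flip hdT] at h3
      exact h3)
    (fun h => hD2 y (P.kap x z) hyr h)
    ⟨⟨P.Rr x z, Ring.inverse (P.Rr x z), comp_inverse hdR.2, inverse_comp hdR.2⟩, rfl⟩ (hc.Ri x hx z hz) (hc.Ai x hx z hz)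
    (hc.Lf x hx z hz) (hc.Rg x hx z hz)
  obtain ⟨hu, h2⟩ := h1
  rw [hHy] at hu h2
  have h3 := P.Na_flip hdT hu
  have h4 : P.Na x z - (P.Gj x z - P.Bu.c₀ • H281.jqp (P.Ai x 0 * Ring.inverse (P.Rr x 0))
      (Ring.inverse (P.Rr x 0) * star (P.Ai x 0)) (fderiv ℝ (P.pm x) 0) Q z z)
      = P.Bu.c₀ • (P.Ai x z * Ring.inverse (fderiv ℝ (P.gr (L.flip x) (P.Af.pt x z)) (P.kap x z)
        + P.Rr x z) * star (P.Ai x z) - (P.Ai x z * Ring.inverse (P.Rr x z) * star (P.Ai x z)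
        - P.Ai x 0 * Ring.inverse (P.Rr x 0) * Q (fderiv ℝ (P.pm x) 0 z) (fderiv ℝ (P.pm x) 0 z)
          * (Ring.inverse (P.Rr x 0) * star (P.Ai x 0)))) := by
    rw [h3, Gj, H281.jqp_apply, smul_sub, smul_sub]
    have h5 : (P.Ai x z).comp ((Ring.inverse (fderiv ℝ (P.gr (L.flip x) (P.Af.pt x z))
        (P.kap x z) + P.Rr x z)).comp (ContinuousLinearMap.adjoint (P.Ai x z)))
        = P.Ai x z * Ring.inverse (fderiv ℝ (P.gr (L.flip x) (P.Af.pt x z)) (P.kap x z)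
        + P.Rr x z) * star (P.Ai x z) := rfl
    rw [h5]
    abel
  rw [h4, norm_smul, Real.norm_of_nonneg P.Bu.c₀_pos.le, mul_assoc P.Bu.c₀ _ (‖z‖ ^ (3 - ε))]
  exact mul_le_mul_of_nonneg_left h2 P.Bu.c₀_pos.le

set_option maxSynthPendingDepth 3 in
/-- **uniform 2-jets of the tensor in the affine charts** -/
theorem jets {K θ r0 : ℝ} {Ck : ℕ → ℝ} {CQ : ℝ → ℝ → (ℕ → ℝ) → ℝ → ℝ} (hK : 1 ≤ K)
    (hθ0 : 0 < θ) (hθ1 : θ ≤ 1 / 2) (hr0 : 0 < r0) (hCk : ∀ k, 0 ≤ Ck k)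
    (hpd : ∀ x, ∃ d : H281.PD E2, d.Ok K θ r0 Ck CQ ∧ ∀ y, d.g y = P.gr x (P.lb x y))
    {ε : ℝ} (hε : 0 < ε) (hε1 : ε ≤ 3 / 4) : ∃ C R : ℝ, 0 < R ∧ R ≤ 1 ∧ ∀ x,
      ∃ (a : E2 →L[ℝ] E2) (A : E2 →L[ℝ] (E2 →L[ℝ] E2)) (Q : E2 →L[ℝ] E2 →L[ℝ] (E2 →L[ℝ] E2)),
        ‖a‖ ≤ C ∧ ‖A‖ ≤ C ∧ ‖Q‖ ≤ C ∧
        ∀ z ∈ ball (0 : E2) R, ‖P.Na x z - (a + A z + Q z z)‖ ≤ C * ‖z‖ ^ (3 - ε) := by
  obtain ⟨Kc, hKc, hcov⟩ := L.cocompact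
  obtain ⟨C0, ρ, hc⟩ := P.exists_cst hKc
  obtain ⟨ρ7, hρ7, C7, h7⟩ := H281.jbd3 P.Gj_jc hKc fun x _ => P.zero_dR x
  set K' : ℝ := max K C0 with hK'
  have hK1 : 1 ≤ K' := hK.trans (le_max_left _ _)
  have hcK : 2 * C0 ≤ 3 * K' := by
    have h1 : C0 ≤ K' := le_max_right _ _
    linarith [hc.one]
  obtain ⟨C, r1, hC, hr1, -, -, htj⟩ := H281.two_jet E2 (Ck := Ck) CQ hK1 hθ0 hθ1 hr0 hCk hε hε1
  obtain ⟨δ, hδ0, hδr, hδ1, hδ2⟩ := H281.exists_delta (C := C) (lt_min hr1 P.rl_pos) hε1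
  obtain ⟨ρ8, hρ8, h8⟩ := P.exists_label hKc hδ0
  have hc0 := P.Bu.c₀_pos
  have hC0 : 0 < C0 := zero_lt_one.trans_le hc.one
  set R : ℝ := min (min 1 ρ) (min (min ρ7 ρ8) (1 / (4 * C0 ^ 2))) with hR
  have hR0 : 0 < R := by
    have := hc.pos
    rw [hR]
    positivity
  have s1 : R ≤ 1 := (min_le_left _ _).trans (min_le_left _ _)
  have s2 : R ≤ ρ := (min_le_left _ _).trans (min_le_right _ _)
  have s3 : R ≤ ρ7 := (min_le_right _ _).trans ((min_le_left _ _).trans (min_le_left _ _))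
  have s4 : R ≤ ρ8 := (min_le_right _ _).trans ((min_le_left _ _).trans (min_le_right _ _))
  have s5 : R ≤ 1 / (4 * C0 ^ 2) := (min_le_right _ _).trans (min_le_right _ _)
  set Cq : ℝ := P.Bu.c₀ * (C0 * (C * C0 ^ 2) * C0) with hCq
  have hCq0 : 0 ≤ Cq := by positivity
  set Cf : ℝ := P.Bu.c₀ * H281.Cj C0 C with hCf
  have hCf0 : 0 ≤ Cf := mul_nonneg hc0.le (H281.Cj_nonneg hc.one hC)
  refine ⟨|C7| + Cq + Cf, R, hR0, s1, fun x => ?_⟩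
  obtain ⟨g, hgx⟩ := hcov x
  set x' : X := g • x with hx'
  obtain ⟨D, hD, hDg⟩ := hpd (L.flip x')
  obtain ⟨⟨Q, -, hQn, hQ⟩, hb⟩ := htj D (hD.mono_Kp (le_max_left _ _))
  obtain ⟨a, A, Q7, ha, hA, hQ7, hjet⟩ := h7 x' hgx
  have hC7 : C7 ≤ |C7| := le_abs_self _
  set J := H281.jqp (P.Ai x' 0 * Ring.inverse (P.Rr x' 0))
      (Ring.inverse (P.Rr x' 0) * star (P.Ai x' 0)) (fderiv ℝ (P.pm x') 0) Q with hJ
  have hJn : ‖J‖ ≤ C0 * (C * C0 ^ 2) * C0 :=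
    H281.jqp_norm (hc.Lf0 x' hgx) (hc.Rg0 x' hgx) (hc.pm0 x' hgx) hQn
  refine ⟨a, A, Q7 - P.Bu.c₀ • J, ha.trans (by linarith), hA.trans (by linarith), ?_,
    fun z hz => ?_⟩
  · refine (norm_sub_le _ _).trans ?_
    have h9 : ‖P.Bu.c₀ • J‖ ≤ Cq := by
      rw [norm_smul, Real.norm_of_nonneg hc0.le]
      exact mul_le_mul_of_nonneg_left hJn hc0.le
    linarith
  · have hzR : ‖z‖ < R := by simpa using hz
    have hz2 : z ∈ closedBall (0 : E2) 2 := by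
      rw [mem_closedBall_zero_iff]
      linarith
    have hz4 : 4 * C0 ^ 2 * ‖z‖ < 1 := by
      have := hzR.trans_le s5
      rw [lt_div_iff₀ (by positivity)] at this
      linarith
    obtain ⟨hnu, hgr⟩ := h8 x' hgx z (hzR.trans_le s4)
    have e1 := P.jet_at hc hC hε hε1 hcK hδ1 (hδr.trans (min_le_left _ _))
      (hδr.trans (min_le_right _ _)) hδ2 hgx hDg hQn hQ hb (ball_subset_ball s2 hz) hz4 hnu hgr
    have e2 := hjet z (ball_subset_ball s3 hz)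
    have e3 : P.Na x' z = P.Na x z := P.Na_smul g (P.Af.closedBall_dT x hz2)
    rw [e3] at e1
    have e4 : ‖z‖ ^ 3 ≤ ‖z‖ ^ (3 - ε) := H281.cube_le (norm_nonneg _) (hzR.le.trans s1) hε hε1
    have e5 : ‖P.Gj x' z - (a + A z + Q7 z z)‖ ≤ |C7| * ‖z‖ ^ (3 - ε) := by
      refine le_trans e2 ?_
      have h10 : 0 ≤ ‖z‖ ^ 3 := by positivity
      calc C7 * ‖z‖ ^ 3 ≤ |C7| * ‖z‖ ^ 3 := mul_le_mul_of_nonneg_right hC7 h10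
        _ ≤ |C7| * ‖z‖ ^ (3 - ε) := mul_le_mul_of_nonneg_left e4 (abs_nonneg _)
    have e6 : P.Na x z - (a + A z + (Q7 - P.Bu.c₀ • J) z z)
        = (P.Na x z - (P.Gj x' z - P.Bu.c₀ • J z z)) + (P.Gj x' z - (a + A z + Q7 z z)) := by
      have h11 : (Q7 - P.Bu.c₀ • J) z z = Q7 z z - P.Bu.c₀ • J z z := rfl
      rw [h11]
      abel
    rw [e6]
    refine (norm_add_le _ _).trans ?_
    have h12 : 0 ≤ ‖z‖ ^ (3 - ε) := by positivity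
    have h13 : 0 ≤ Cq * ‖z‖ ^ (3 - ε) := mul_nonneg hCq0 h12
    calc _ ≤ Cf * ‖z‖ ^ (3 - ε) + |C7| * ‖z‖ ^ (3 - ε) := add_le_add e1 e5
      _ ≤ (|C7| + Cq + Cf) * ‖z‖ ^ (3 - ε) := by
        rw [add_mul, add_mul]
        linarith

end Pic

end Vale.Agent.P207.N4.Y
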